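import Vale.Agent.P062.Check
import Mathlib.Data.Int.Interval

namespace Vale.Agent.P062

/-- Maker, to move, can force owning a copy after `h` more own moves, all inside `R`. -/
def WB (R : Finset Cell) : ℕ → Finset Cell → Finset Cell → Prop
  | 0, M, _ => ∃ C, IsAllowedCopy C ∧ C ⊆ (M : Set Cell)
  | h + 1, M, B => ∃ p, p ∈ R ∧ p ∉ M ∧ p ∉ B ∧
      ∀ x, x ∉ insert p M → x ∉ B → WB R h (insert p M) (insert x B)

theorem exists_fresh_in (R M B : Finset Cell) (h : M.card + B.card < R.card) :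
    ∃ p, p ∈ R ∧ p ∉ M ∧ p ∉ B := by
  have : (M ∪ B).card < R.card := lt_of_le_of_lt (Finset.card_union_le _ _) h
  obtain ⟨p, hp, hq⟩ := Finset.exists_mem_notMem_of_card_lt_card this
  exact ⟨p, hp, fun h => hq (Finset.mem_union_left _ h), fun h => hq (Finset.mem_union_right _ h)⟩

theorem WB_succ (R : Finset Cell) : ∀ (h : ℕ) (M B : Finset Cell),
    M.card + B.card + 2 * (h + 1) ≤ R.card → WB R h M B → WB R (h + 1) M B
  | 0, M, B, hc, ⟨C, hC, hs⟩ => by
      obtain ⟨p, hp0, hp1, hp2⟩ := exists_fresh_in R M B (by omega)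
      refine ⟨p, hp0, hp1, hp2, fun x _ _ => ⟨C, hC, fun c hc => ?_⟩⟩
      have := hs hc
      simp only [Finset.coe_insert, Set.mem_insert_iff]
      exact Or.inr this
  | h + 1, M, B, hc, ⟨p, hp0, hp1, hp2, H⟩ =>
      ⟨p, hp0, hp1, hp2, fun x hx1 hx2 => WB_succ R h _ _ (by
        have := Finset.card_insert_le p M
        have := Finset.card_insert_le x B
        omega) (H x hx1 hx2)⟩

theorem WB_mono (R : Finset Cell) {h k : ℕ} (hk : h ≤ k) {M B : Finset Cell}
    (hc : M.card + B.card + 2 * k ≤ R.card) (H : WB R h M B) : WB R k M B := by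
  induction hk with
  | refl => exact H
  | step _ ih => exact WB_succ R _ _ _ hc (ih (by omega))

def ValidB (R : Finset Cell) (A T : List ℕ) (h : ℕ) : Prop :=
  ∀ g, Good g → ∀ M B : Finset Cell, M.card + B.card + 2 * h ≤ R.card →
    (∀ a ∈ A, g (pos a) ∈ M) → (∀ t ∈ T, g (pos t) ∉ B) → (∀ t ∈ T, g (pos t) ∈ R) → WB R h M B

theorem check_soundB (R : Finset Cell) (tb : ℕ → ℕ) (i : ℕ) (H : check tb i = true)
    (ih : ∀ j < i, ValidB R (cA (tb j)) (cT (tb j)) (cH (tb j))) :
    ValidB R (cA (tb i)) (cT (tb i)) (cH (tb i)) := by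
  simp only [check, Bool.and_eq_true, Nat.blt_eq] at H
  obtain ⟨⟨h0, hp⟩, hl⟩ := H
  obtain ⟨s1, s2⟩ := loop_spec _ _ _ _ _ _ _ hl
  obtain ⟨k0, hk0⟩ : ∃ k, k ∈ cK (tb i) := kids_ne_nil h0
  have hh : 0 < cH (tb i) := by have := (s1 k0 hk0).2.1; omega
  obtain ⟨h', e⟩ : ∃ h', cH (tb i) = h' + 1 := ⟨cH (tb i) - 1, by omega⟩
  intro g hg M B hc hA hT hR
  have hpT : cP (tb i) ∈ cT (tb i) := (testBit_mask _ _).1 hp
  obtain ⟨q, hq0, hq1, hq2, hq3⟩ :
      ∃ q, q ∈ R ∧ q ∉ M ∧ q ∉ B ∧ g (pos (cP (tb i))) ∈ insert q M := by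
    by_cases hpM : g (pos (cP (tb i))) ∈ M
    · obtain ⟨q, h0, h1, h2⟩ := exists_fresh_in R M B (by omega)
      exact ⟨q, h0, h1, h2, Finset.mem_insert_of_mem hpM⟩
    · exact ⟨_, hR _ hpT, hpM, hT _ hpT, Finset.mem_insert_self _ _⟩
  have hA' : ∀ c, (mask (cP (tb i) :: cA (tb i))).testBit c = true → g (pos c) ∈ insert q M := by
    intro c hc
    rcases List.mem_cons.mp ((testBit_mask _ _).1 hc) with rfl | hc
    · exact hq3
    · exact Finset.mem_insert_of_mem (hA c hc)
  rw [e] at hc ⊢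
  refine ⟨q, hq0, hq1, hq2, fun x hx1 hx2 => ?_⟩
  obtain ⟨k, hk, hkx⟩ : ∃ k ∈ cK (tb i),
      ∀ c ∈ (cT (tb k.idx)).map (trc k.a k.b k.w k.D k.E), g (pos c) ≠ x := by
    by_cases hx : ∃ c ∈ cT (tb i), g (pos c) = x
    · obtain ⟨c, hc, rfl⟩ := hx
      rcases s2 c ((testBit_mask _ _).2 hc) with h | ⟨k, hk, h⟩
      · exact absurd (hA' c h) hx1
      · refine ⟨k, hk, fun d hd hdc => h ?_⟩
        rw [← pos_inj (hg.1 hdc)]
        exact hd
    · refine ⟨k0, hk0, fun d hd hdc => hx ⟨d, ?_, hdc⟩⟩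
      obtain ⟨c, hc, rfl⟩ := List.mem_map.mp hd
      exact (testBit_mask _ _).1 ((s1 k0 hk0).2.2.2 c hc).2
  obtain ⟨t1, t2, t3, t4⟩ := s1 k hk
  have c1 := Finset.card_insert_le q M
  have c2 := Finset.card_insert_le x B
  refine WB_mono R (h := cH (tb k.idx)) (by omega) (by omega) ?_
  refine ih k.idx t1 (g ∘ app k.a k.b k.w k.D k.E) (hg.comp (good_app _ _ _ _ _)) _ _
    (by omega) ?_ ?_ ?_
  · intro c hc
    have := hA' _ (t3 c hc).2
    rwa [pos_trc _ _ _ _ _ _ (t3 c hc).1] at this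
  · intro c hc hB
    rw [Function.comp_apply, ← pos_trc _ _ _ _ _ _ (t4 c hc).1, Finset.mem_insert] at hB
    rcases hB with hB | hB
    · exact hkx _ (List.mem_map_of_mem hc) hB
    · exact hT _ ((testBit_mask _ _).1 (t4 c hc).2) hB
  · intro c hc
    rw [Function.comp_apply, ← pos_trc _ _ _ _ _ _ (t4 c hc).1]
    exact hR _ ((testBit_mask _ _).1 (t4 c hc).2)

theorem all_validB (R : Finset Cell) (tb : ℕ → ℕ) (n : ℕ)
    (hA : cA (tb 0) = [0, 32, 64, 96, 97, 129])
    (hH : cH (tb 0) = 0) (H : ∀ j, 1 ≤ j → j < n → check tb j = true) :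
    ∀ j < n, ValidB R (cA (tb j)) (cT (tb j)) (cH (tb j)) := by
  intro j
  induction j using Nat.strong_induction_on with
  | _ j ih =>
    intro hj
    rcases Nat.eq_zero_or_pos j with rfl | h0
    · rw [hH]
      intro g hg M B _ h1 h2 _
      exact valid_base _ _ hA g hg M B h1 h2
    · exact check_soundB R tb j (H j h0 hj) (fun k hk => ih k hk (by omega))

def board : Finset Cell := Finset.Icc (0 : ℤ) 16 ×ˢ Finset.Icc (0 : ℤ) 16

theorem card_board : board.card = 289 := by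
  simp [board, Finset.card_product]

theorem mem_board {c : Cell} : c ∈ board ↔ 0 ≤ c.1 ∧ c.1 ≤ 16 ∧ 0 ≤ c.2 ∧ c.2 ≤ 16 := by
  simp [board, and_assoc]

theorem WB_of_valid {T : List ℕ} {h : ℕ} (hh : h ≤ 100) (H : ValidB board [] T h)
    (hT : T.all (fun c => Nat.ble (Nat.div c 32) 16 && Nat.ble (Nat.mod c 32) 16) = true) :
    WB board h ∅ ∅ := by
  refine H id good_id ∅ ∅ (by simp [card_board]; omega) (by simp) (by simp) ?_
  intro t ht
  have := List.all_eq_true.mp hT t ht
  simp only [Bool.and_eq_true, Nat.ble_eq] at this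
  have e1 : Nat.mod t 32 = t % 32 := rfl
  have e2 : Nat.div t 32 = t / 32 := rfl
  rw [e1, e2] at this
  rw [id, mem_board]
  simp only [pos]
  omega

open Classical in
noncomputable def pickB (R : Finset Cell) (h : ℕ) (M B : Finset Cell) : Cell :=
  if H : ∃ p, p ∈ R ∧ p ∉ M ∧ p ∉ B ∧
      ∀ x, x ∉ insert p M → x ∉ B → WB R (h - 1) (insert p M) (insert x B)
  then H.choose else (exists_fresh M B).choose

theorem pickB_fresh (R : Finset Cell) (h : ℕ) (M B : Finset Cell) :
    pickB R h M B ∉ M ∧ pickB R h M B ∉ B := by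
  unfold pickB
  split_ifs with H
  · exact ⟨H.choose_spec.2.1, H.choose_spec.2.2.1⟩
  · exact (exists_fresh M B).choose_spec

theorem pickB_win (R : Finset Cell) (h : ℕ) (M B : Finset Cell) (H : WB R (h + 1) M B) :
    pickB R (h + 1) M B ∈ R ∧ ∀ x, x ∉ insert (pickB R (h + 1) M B) M → x ∉ B →
      WB R h (insert (pickB R (h + 1) M B) M) (insert x B) := by
  have H' : ∃ p, p ∈ R ∧ p ∉ M ∧ p ∉ B ∧
      ∀ x, x ∉ insert p M → x ∉ B → WB R (h + 1 - 1) (insert p M) (insert x B) := H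
  have : pickB R (h + 1) M B = H'.choose := by
    unfold pickB
    rw [dif_pos H']
  rw [this]
  exact ⟨H'.choose_spec.1, H'.choose_spec.2.2.2⟩

noncomputable def stepB (R : Finset Cell) (N : ℕ) (s : ℕ × Finset Cell × Finset Cell) (x : Cell) :
    ℕ × Finset Cell × Finset Cell :=
  (s.1 + 1, insert (pickB R (N - s.1) s.2.1 s.2.2) s.2.1, insert x s.2.2)

noncomputable def stateB (R : Finset Cell) (N : ℕ) (l : List Cell) :
    ℕ × Finset Cell × Finset Cell :=
  l.foldl (stepB R N) (0, ∅, ∅)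

noncomputable def stratB (R : Finset Cell) (N : ℕ) (l : List Cell) : Cell :=
  pickB R (N - (stateB R N l).1) (stateB R N l).2.1 (stateB R N l).2.2

theorem stateB_succ (R : Finset Cell) (N : ℕ) (b : ℕ → Cell) (n : ℕ) :
    stateB R N ((List.range (n + 1)).map b)
      = stepB R N (stateB R N ((List.range n).map b)) (b n) := by
  unfold stateB
  rw [List.range_succ, List.map_append, List.foldl_append]
  rfl

theorem stateB_spec (R : Finset Cell) (N : ℕ) (b m : ℕ → Cell)
    (hm : ∀ n, m n = stratB R N ((List.range n).map b)) (n : ℕ) :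
    (stateB R N ((List.range n).map b)).1 = n ∧
    (∀ c, c ∈ (stateB R N ((List.range n).map b)).2.1 ↔ ∃ k < n, m k = c) ∧
    (∀ c, c ∈ (stateB R N ((List.range n).map b)).2.2 ↔ ∃ k < n, b k = c) := by
  induction n with
  | zero => simp [stateB]
  | succ n ih =>
    obtain ⟨h1, h2, h3⟩ := ih
    rw [stateB_succ]
    refine ⟨by simp [stepB, h1], fun c => ?_, fun c => ?_⟩
    · have e : pickB R (N - (stateB R N ((List.range n).map b)).1)
          (stateB R N ((List.range n).map b)).2.1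
          (stateB R N ((List.range n).map b)).2.2 = m n := (hm n).symm
      simp only [stepB, e, Finset.mem_insert, h2]
      constructor
      · rintro (rfl | ⟨k, hk, rfl⟩)
        · exact ⟨n, by omega, rfl⟩
        · exact ⟨k, by omega, rfl⟩
      · rintro ⟨k, hk, rfl⟩
        rcases Nat.lt_succ_iff_lt_or_eq.mp hk with h | rfl
        · exact Or.inr ⟨k, h, rfl⟩
        · exact Or.inl rfl
    · simp only [stepB, Finset.mem_insert, h3]
      constructor
      · rintro (rfl | ⟨k, hk, rfl⟩)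
        · exact ⟨n, by omega, rfl⟩
        · exact ⟨k, by omega, rfl⟩
      · rintro ⟨k, hk, rfl⟩
        rcases Nat.lt_succ_iff_lt_or_eq.mp hk with h | rfl
        · exact Or.inr ⟨k, h, rfl⟩
        · exact Or.inl rfl

theorem strategy_of_WB (R : Finset Cell) (N : ℕ) (H : WB R (N + 1) ∅ ∅) :
    ∃ σ : List Cell → Cell, ∀ b m : ℕ → Cell, (∀ n, m n = σ ((List.range n).map b)) →
      (∀ n, ∀ k < n, m n ≠ m k ∧ m n ≠ b k) ∧
      (∀ n < N + 1, (∀ j < n, (∀ k ≤ j, b j ≠ m k) ∧ (∀ k < j, b j ≠ b k)) → m n ∈ R) ∧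
      ((∀ j < N, (∀ k ≤ j, b j ≠ m k) ∧ (∀ k < j, b j ≠ b k)) →
        ∃ C, IsAllowedCopy C ∧ ∀ c ∈ C, ∃ k < N + 1, m k = c) := by
  refine ⟨stratB R (N + 1), fun b m hm => ?_⟩
  have key : ∀ n ≤ N, (∀ j < n, (∀ k ≤ j, b j ≠ m k) ∧ (∀ k < j, b j ≠ b k)) →
      WB R (N + 1 - n) (stateB R (N + 1) ((List.range n).map b)).2.1
      (stateB R (N + 1) ((List.range n).map b)).2.2 := by
    intro n hn hb
    induction n with
    | zero => simpa [stateB] using H
    | succ n ih =>
      have ih' := ih (by omega) (fun j hj => hb j (by omega))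
      obtain ⟨h1, h2, h3⟩ := stateB_spec R (N + 1) b m hm n
      have e1 : N + 1 - n = (N - n) + 1 := by omega
      have e2 : N + 1 - (n + 1) = N - n := by omega
      rw [e1] at ih'
      have := (pickB_win R _ _ _ ih').2 (b n)
      rw [stateB_succ, e2]
      have e : pickB R (N - n + 1) (stateB R (N + 1) ((List.range n).map b)).2.1
          (stateB R (N + 1) ((List.range n).map b)).2.2 = m n := by
        rw [hm n, stratB, h1, e1]
      simp only [stepB, h1, e1]
      apply this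
      · rw [e, Finset.mem_insert, h2]
        rintro (h | ⟨k, hk, h⟩)
        · exact (hb n (by omega)).1 n le_rfl h
        · exact (hb n (by omega)).1 k hk.le h.symm
      · rw [h3]
        rintro ⟨k, hk, h⟩
        exact (hb n (by omega)).2 k hk h.symm
  refine ⟨fun n k hk => ?_, fun n hn hb => ?_, fun hb => ?_⟩
  · obtain ⟨_, h2, h3⟩ := stateB_spec R (N + 1) b m hm n
    have hf := pickB_fresh R (N + 1 - (stateB R (N + 1) ((List.range n).map b)).1)
      (stateB R (N + 1) ((List.range n).map b)).2.1 (stateB R (N + 1) ((List.range n).map b)).2.2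
    have e : pickB R (N + 1 - (stateB R (N + 1) ((List.range n).map b)).1)
      (stateB R (N + 1) ((List.range n).map b)).2.1 (stateB R (N + 1) ((List.range n).map b)).2.2
        = m n := (hm n).symm
    rw [e] at hf
    exact ⟨fun h => hf.1 ((h2 _).2 ⟨k, hk, h.symm⟩), fun h => hf.2 ((h3 _).2 ⟨k, hk, h.symm⟩)⟩
  · have k1 := key n (by omega) hb
    have e1 : N + 1 - n = (N - n) + 1 := by omega
    rw [e1] at k1
    obtain ⟨h1, _, _⟩ := stateB_spec R (N + 1) b m hm n
    have := (pickB_win R _ _ _ k1).1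
    rw [hm n, stratB, h1, e1]
    exact this
  · have k1 := key N le_rfl hb
    have e1 : N + 1 - N = 0 + 1 := by omega
    rw [e1] at k1
    obtain ⟨h1, h2, h3⟩ := stateB_spec R (N + 1) b m hm N
    obtain ⟨x, hx1, hx2⟩ := exists_fresh (insert (pickB R (0 + 1)
      (stateB R (N + 1) ((List.range N).map b)).2.1 (stateB R (N + 1) ((List.range N).map b)).2.2)
      (stateB R (N + 1) ((List.range N).map b)).2.1) (stateB R (N + 1) ((List.range N).map b)).2.2
    obtain ⟨C, hC, hs⟩ := (pickB_win R _ _ _ k1).2 x hx1 hx2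
    have e : pickB R (0 + 1) (stateB R (N + 1) ((List.range N).map b)).2.1
        (stateB R (N + 1) ((List.range N).map b)).2.2 = m N := by
      rw [hm N, stratB, h1, e1]
    refine ⟨C, hC, fun c hc => ?_⟩
    have := hs hc
    rw [e, Finset.mem_coe, Finset.mem_insert, h2] at this
    rcases this with rfl | ⟨k, hk, rfl⟩
    · exact ⟨N, by omega, rfl⟩
    · exact ⟨k, by omega, rfl⟩

end Vale.Agent.P062
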