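import Vale.Agent.P062.Game

namespace Vale.Agent.P062

def Good (g : Cell → Cell) : Prop :=
  Function.Injective g ∧ ∀ C, IsAllowedCopy C → IsAllowedCopy (g '' C)

theorem Good.comp {g f : Cell → Cell} (hg : Good g) (hf : Good f) : Good (g ∘ f) :=
  ⟨hg.1.comp hf.1, fun C hC => by rw [Set.image_comp]; exact hg.2 _ (hf.2 C hC)⟩

theorem good_id : Good id := ⟨Function.injective_id, fun C hC => by simpa using hC⟩

theorem good_translate (dx dy : ℤ) : Good (fun c : Cell => (c.1 + dx, c.2 + dy)) := by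
  refine ⟨fun c d h => ?_, ?_⟩
  · simp only [Prod.mk.injEq] at h
    exact Prod.ext (by omega) (by omega)
  · rintro C ⟨t, a, b, c, d, hs, rfl⟩
    refine ⟨(t.1 + dx, t.2 + dy), a, b, c, d, hs, ?_⟩
    rw [Set.image_image]
    congr 1
    funext p
    exact Prod.ext (by simp; ring) (by simp; ring)

theorem good_negx : Good (fun c : Cell => (-c.1, c.2)) := by
  refine ⟨fun c d h => ?_, ?_⟩
  · simp only [Prod.mk.injEq] at h
    exact Prod.ext (by omega) (by omega)
  · rintro C ⟨t, a, b, c, d, hs, rfl⟩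
    refine ⟨(-t.1, t.2), -a, -b, c, d, ?_, ?_⟩
    · unfold IsSignedPerm at *; omega
    · rw [Set.image_image]
      congr 1
      funext p
      exact Prod.ext (by simp; ring) (by simp)

theorem good_negy : Good (fun c : Cell => (c.1, -c.2)) := by
  refine ⟨fun c d h => ?_, ?_⟩
  · simp only [Prod.mk.injEq] at h
    exact Prod.ext (by omega) (by omega)
  · rintro C ⟨t, a, b, c, d, hs, rfl⟩
    refine ⟨(t.1, -t.2), a, b, -c, -d, ?_, ?_⟩
    · unfold IsSignedPerm at *; omega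
    · rw [Set.image_image]
      congr 1
      funext p
      exact Prod.ext (by simp) (by simp; ring)

theorem good_swap : Good (fun c : Cell => (c.2, c.1)) := by
  refine ⟨fun c d h => ?_, ?_⟩
  · simp only [Prod.mk.injEq] at h
    exact Prod.ext (by omega) (by omega)
  · rintro C ⟨t, a, b, c, d, hs, rfl⟩
    refine ⟨(t.2, t.1), c, d, a, b, ?_, ?_⟩
    · unfold IsSignedPerm at *; omega
    · rw [Set.image_image]

/-- symmetry: flags `a b w`, translation `(D - 64, E - 64)`. -/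
def app (a b w : Bool) (D E : ℕ) (c : Cell) : Cell :=
  let x := if a then -c.1 else c.1
  let y := if b then -c.2 else c.2
  if w then (y + ((D : ℤ) - 64), x + ((E : ℤ) - 64)) else (x + ((D : ℤ) - 64), y + ((E : ℤ) - 64))

theorem good_app (a b w : Bool) (D E : ℕ) : Good (app a b w D E) := by
  have t := good_translate ((D : ℤ) - 64) ((E : ℤ) - 64)
  cases a <;> cases b <;> cases w
  · exact t
  · exact t.comp good_swap
  · exact t.comp good_negy
  · exact t.comp (good_swap.comp good_negy)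
  · exact t.comp good_negx
  · exact t.comp (good_swap.comp good_negx)
  · exact t.comp (good_negy.comp good_negx)
  · exact t.comp (good_swap.comp (good_negy.comp good_negx))

def pos (c : ℕ) : Cell := (((c / 32 : ℕ) : ℤ), ((c % 32 : ℕ) : ℤ))

theorem pos_inj {c d : ℕ} (h : pos c = pos d) : c = d := by
  simp only [pos, Prod.mk.injEq] at h
  omega

def Valid (A T : List ℕ) (h : ℕ) : Prop :=
  ∀ g, Good g → ∀ M B : Finset Cell, (∀ a ∈ A, g (pos a) ∈ M) → (∀ t ∈ T, g (pos t) ∉ B) → W h M B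

def co (neg : Bool) (D v : ℕ) : ℕ := cond neg (Nat.sub D v) (Nat.add D v)

def rx (a b w : Bool) (D c : ℕ) : ℕ :=
  cond w (co b D (Nat.mod c 32)) (co a D (Nat.div c 32))

def ry (a b w : Bool) (E c : ℕ) : ℕ :=
  cond w (co a E (Nat.div c 32)) (co b E (Nat.mod c 32))

def okc (a b w : Bool) (D E c : ℕ) : Bool :=
  Nat.ble 64 (rx a b w D c) && Nat.ble 64 (ry a b w E c) && Nat.ble (ry a b w E c) 95

def trc (a b w : Bool) (D E c : ℕ) : ℕ :=
  Nat.add (Nat.mul 32 (Nat.sub (rx a b w D c) 64)) (Nat.sub (ry a b w E c) 64)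

theorem pos_trc (a b w : Bool) (D E c : ℕ) (h : okc a b w D E c = true) :
    pos (trc a b w D E c) = app a b w D E (pos c) := by
  simp only [okc, Bool.and_eq_true, Nat.ble_eq] at h
  obtain ⟨⟨h1, h2⟩, h3⟩ := h
  have e1 : Nat.mod c 32 = c % 32 := rfl
  have e2 : Nat.div c 32 = c / 32 := rfl
  cases a <;> cases b <;> cases w <;>
    simp only [rx, ry, co, cond, Nat.sub_eq, Nat.add_eq, e1, e2,
      Nat.mul_eq, trc, pos, app, Bool.false_eq_true, if_false, if_true] at * <;>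
    refine Prod.ext ?_ ?_ <;> simp only [] <;> omega

def mask : List ℕ → ℕ
  | [] => 0
  | c :: l => Nat.lor (Nat.shiftLeft 1 c) (mask l)

theorem testBit_mask (l : List ℕ) (c : ℕ) : (mask l).testBit c = true ↔ c ∈ l := by
  induction l with
  | nil => simp [mask]
  | cons d l ih =>
    have : mask (d :: l) = (1 <<< d) ||| mask l := rfl
    rw [this, Nat.testBit_or, Bool.or_eq_true, ih, Nat.one_shiftLeft, Nat.testBit_two_pow]
    simp [eq_comm]

def sub (a b : ℕ) : Bool := Nat.beq (Nat.land a b) a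

theorem sub_spec {a b : ℕ} (h : sub a b = true) {c : ℕ} (hc : a.testBit c = true) :
    b.testBit c = true := by
  have h1 : a &&& b = a := Nat.eq_of_beq_eq_true h
  rw [← h1, Nat.testBit_and, Bool.and_eq_true] at hc
  exact hc.2

structure Child where
  idx : ℕ
  a : Bool
  b : Bool
  w : Bool
  D : ℕ
  E : ℕ

def cells : ℕ → ℕ → List ℕ
  | 0, _ => []
  | n + 1, r => Nat.mod r 1024 :: cells n (Nat.div r 1024)

def kids : ℕ → ℕ → List Child
  | 0, _ => []
  | n + 1, r =>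
    ⟨Nat.mod r 131072, Nat.beq (Nat.mod (Nat.div r 131072) 2) 1,
      Nat.beq (Nat.mod (Nat.div r 262144) 2) 1, Nat.beq (Nat.mod (Nat.div r 524288) 2) 1,
      Nat.mod (Nat.div r 1048576) 256, Nat.mod (Nat.div r 268435456) 256⟩ ::
      kids n (Nat.div r 68719476736)

def cH (r : ℕ) : ℕ := Nat.mod r 32
def cP (r : ℕ) : ℕ := Nat.mod (Nat.div r 32) 1024
def nA (r : ℕ) : ℕ := Nat.mod (Nat.div r 32768) 32
def nT (r : ℕ) : ℕ := Nat.mod (Nat.div r 1048576) 1024
def nC (r : ℕ) : ℕ := Nat.mod (Nat.div r 1073741824) 1024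
def cA (r : ℕ) : List ℕ := cells (nA r) (Nat.shiftRight r 40)
def cT (r : ℕ) : List ℕ := cells (nT r) (Nat.shiftRight r (Nat.add 40 (Nat.mul 10 (nA r))))
def cK (r : ℕ) : List Child :=
  kids (nC r) (Nat.shiftRight r (Nat.add 40 (Nat.mul 10 (Nat.add (nA r) (nT r)))))

inductive Tr where
  | leaf (n : ℕ) : Tr
  | node (l r : Tr) : Tr

def Tr.get : Tr → ℕ → ℕ → ℕ
  | .leaf n, _, _ => n
  | .node l r, s, i => cond (Nat.ble s i) (r.get (Nat.div s 2) (Nat.sub i s)) (l.get (Nat.div s 2) i)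

/-- Checks the children; `I` is the running intersection of placed envelopes. -/
def loop (tb : ℕ → ℕ) (i h mA mT : ℕ) : List Child → ℕ → Bool
  | [], I => sub I mA
  | k :: l, I =>
    Nat.blt k.idx i && Nat.blt (cH (tb k.idx)) h &&
    (cA (tb k.idx)).all (okc k.a k.b k.w k.D k.E) &&
    (cT (tb k.idx)).all (okc k.a k.b k.w k.D k.E) &&
    sub (mask ((cA (tb k.idx)).map (trc k.a k.b k.w k.D k.E))) mA &&
    sub (mask ((cT (tb k.idx)).map (trc k.a k.b k.w k.D k.E))) mT &&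
    loop tb i h mA mT l (Nat.land I (mask ((cT (tb k.idx)).map (trc k.a k.b k.w k.D k.E))))

def check (tb : ℕ → ℕ) (i : ℕ) : Bool :=
  Nat.blt 0 (nC (tb i)) && (mask (cT (tb i))).testBit (cP (tb i)) &&
  loop tb i (cH (tb i)) (mask (cP (tb i) :: cA (tb i))) (mask (cT (tb i))) (cK (tb i))
    (mask (cT (tb i)))

theorem loop_spec (tb : ℕ → ℕ) (i h mA mT : ℕ) : ∀ (l : List Child) (I : ℕ),
    loop tb i h mA mT l I = true →
    (∀ k ∈ l, k.idx < i ∧ cH (tb k.idx) < h ∧
      (∀ c ∈ cA (tb k.idx), okc k.a k.b k.w k.D k.E c = true ∧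
        mA.testBit (trc k.a k.b k.w k.D k.E c) = true) ∧
      (∀ c ∈ cT (tb k.idx), okc k.a k.b k.w k.D k.E c = true ∧
        mT.testBit (trc k.a k.b k.w k.D k.E c) = true)) ∧
    (∀ c, I.testBit c = true → mA.testBit c = true ∨
      ∃ k ∈ l, c ∉ (cT (tb k.idx)).map (trc k.a k.b k.w k.D k.E))
  | [], I, H => ⟨by simp, fun c hc => Or.inl (sub_spec H hc)⟩
  | k :: l, I, H => by
    simp only [loop, Bool.and_eq_true, Nat.blt_eq, List.all_eq_true] at H
    obtain ⟨⟨⟨⟨⟨⟨h1, h2⟩, h3⟩, h4⟩, h5⟩, h6⟩, h7⟩ := H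
    obtain ⟨ih1, ih2⟩ := loop_spec tb i h mA mT l _ h7
    refine ⟨fun k' hk' => ?_, fun c hc => ?_⟩
    · rcases List.mem_cons.mp hk' with rfl | hk'
      · refine ⟨h1, h2, fun c hc => ⟨h3 c hc, sub_spec h5 ?_⟩, fun c hc => ⟨h4 c hc, sub_spec h6 ?_⟩⟩
        · exact (testBit_mask _ _).2 (List.mem_map_of_mem hc)
        · exact (testBit_mask _ _).2 (List.mem_map_of_mem hc)
      · exact ih1 k' hk'
    · by_cases hm : c ∈ (cT (tb k.idx)).map (trc k.a k.b k.w k.D k.E)
      · have : (Nat.land I (mask ((cT (tb k.idx)).map (trc k.a k.b k.w k.D k.E)))).testBit c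
            = true := by
          have e : Nat.land I (mask ((cT (tb k.idx)).map (trc k.a k.b k.w k.D k.E)))
            = I &&& (mask ((cT (tb k.idx)).map (trc k.a k.b k.w k.D k.E))) := rfl
          rw [e, Nat.testBit_and, hc, (testBit_mask _ _).2 hm]
          rfl
        rcases ih2 c this with h | ⟨k', hk', h⟩
        · exact Or.inl h
        · exact Or.inr ⟨k', List.mem_cons_of_mem _ hk', h⟩
      · exact Or.inr ⟨k, List.mem_cons_self, hm⟩

theorem kids_ne_nil {n r : ℕ} (h : 0 < n) : ∃ k, k ∈ kids n r := by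
  cases n with
  | zero => omega
  | succ n => exact ⟨_, List.mem_cons_self⟩

theorem check_sound (tb : ℕ → ℕ) (i : ℕ) (H : check tb i = true)
    (ih : ∀ j < i, Valid (cA (tb j)) (cT (tb j)) (cH (tb j))) :
    Valid (cA (tb i)) (cT (tb i)) (cH (tb i)) := by
  simp only [check, Bool.and_eq_true, Nat.blt_eq] at H
  obtain ⟨⟨h0, hp⟩, hl⟩ := H
  obtain ⟨s1, s2⟩ := loop_spec _ _ _ _ _ _ _ hl
  obtain ⟨k0, hk0⟩ : ∃ k, k ∈ cK (tb i) := kids_ne_nil h0
  have hh : 0 < cH (tb i) := by have := (s1 k0 hk0).2.1; omega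
  obtain ⟨h', e⟩ : ∃ h', cH (tb i) = h' + 1 := ⟨cH (tb i) - 1, by omega⟩
  intro g hg M B hA hT
  have hpT : cP (tb i) ∈ cT (tb i) := (testBit_mask _ _).1 hp
  obtain ⟨q, hq1, hq2, hq3⟩ : ∃ q, q ∉ M ∧ q ∉ B ∧ g (pos (cP (tb i))) ∈ insert q M := by
    by_cases hpM : g (pos (cP (tb i))) ∈ M
    · obtain ⟨q, h1, h2⟩ := exists_fresh M B
      exact ⟨q, h1, h2, Finset.mem_insert_of_mem hpM⟩
    · exact ⟨_, hpM, hT _ hpT, Finset.mem_insert_self _ _⟩
  have hA' : ∀ c, (mask (cP (tb i) :: cA (tb i))).testBit c = true → g (pos c) ∈ insert q M := by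
    intro c hc
    rcases List.mem_cons.mp ((testBit_mask _ _).1 hc) with rfl | hc
    · exact hq3
    · exact Finset.mem_insert_of_mem (hA c hc)
  rw [e]
  refine ⟨q, hq1, hq2, fun x hx1 hx2 => ?_⟩
  obtain ⟨k, hk, hkx⟩ : ∃ k ∈ cK (tb i),
      ∀ c ∈ (cT (tb k.idx)).map (trc k.a k.b k.w k.D k.E), g (pos c) ≠ x := by
    by_cases hx : ∃ c ∈ cT (tb i), g (pos c) = x
    · obtain ⟨c, hc, rfl⟩ := hx
      rcases s2 c ((testBit_mask _ _).2 hc) with h | ⟨k, hk, h⟩
      · exact absurd (hA' c h) hx1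
      · refine ⟨k, hk, fun d hd hdc => h ?_⟩
        rw [← pos_inj (hg.1 hdc)]
        exact hd
    · refine ⟨k0, hk0, fun d hd hdc => hx ⟨d, ?_, hdc⟩⟩
      obtain ⟨c, hc, rfl⟩ := List.mem_map.mp hd
      exact (testBit_mask _ _).1 ((s1 k0 hk0).2.2.2 c hc).2
  obtain ⟨t1, t2, t3, t4⟩ := s1 k hk
  refine W_mono (h := cH (tb k.idx)) (by omega) ?_
  refine ih k.idx t1 (g ∘ app k.a k.b k.w k.D k.E) (hg.comp (good_app _ _ _ _ _)) _ _ ?_ ?_
  · intro c hc
    have := hA' _ (t3 c hc).2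
    rwa [pos_trc _ _ _ _ _ _ (t3 c hc).1] at this
  · intro c hc hB
    rw [Function.comp_apply, ← pos_trc _ _ _ _ _ _ (t4 c hc).1, Finset.mem_insert] at hB
    rcases hB with hB | hB
    · exact hkx _ (List.mem_map_of_mem hc) hB
    · exact hT _ ((testBit_mask _ _).1 (t4 c hc).2) hB

theorem valid_base (A T : List ℕ) (hA : A = [0, 32, 64, 96, 97, 129]) : Valid A T 0 := by
  intro g hg M B h1 _
  refine ⟨g '' snaky, hg.2 _ ⟨(0, 0), 1, 0, 0, 1, ?_, ?_⟩, ?_⟩
  · unfold IsSignedPerm; omega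
  · simp
  · rintro _ ⟨c, hc, rfl⟩
    subst hA
    simp only [snaky, Set.mem_insert_iff, Set.mem_singleton_iff] at hc
    rcases hc with rfl | rfl | rfl | rfl | rfl | rfl
    · exact h1 0 (by simp)
    · exact h1 32 (by simp)
    · exact h1 64 (by simp)
    · exact h1 96 (by simp)
    · exact h1 97 (by simp)
    · exact h1 129 (by simp)

def checkRange (tb : ℕ → ℕ) : ℕ → ℕ → Bool
  | 0, _ => true
  | n + 1, i => check tb i && checkRange tb n (Nat.succ i)

theorem checkRange_spec (tb : ℕ → ℕ) : ∀ n i, checkRange tb n i = true →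
    ∀ j, i ≤ j → j < i + n → check tb j = true
  | 0, i, _, j, h1, h2 => by omega
  | n + 1, i, H, j, h1, h2 => by
    simp only [checkRange, Bool.and_eq_true] at H
    rcases Nat.eq_or_lt_of_le h1 with rfl | h
    · exact H.1
    · exact checkRange_spec tb n (i + 1) H.2 j h (by omega)

theorem all_valid (tb : ℕ → ℕ) (n : ℕ) (hA : cA (tb 0) = [0, 32, 64, 96, 97, 129])
    (hH : cH (tb 0) = 0) (H : ∀ j, 1 ≤ j → j < n → check tb j = true) :
    ∀ j < n, Valid (cA (tb j)) (cT (tb j)) (cH (tb j)) := by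
  intro j
  induction j using Nat.strong_induction_on with
  | _ j ih =>
    intro hj
    rcases Nat.eq_zero_or_pos j with rfl | h0
    · rw [hH]; exact valid_base _ _ hA
    · exact check_sound tb j (H j h0 hj) (fun k hk => ih k hk (by omega))

theorem W_of_valid {T : List ℕ} {h : ℕ} (H : Valid [] T h) : W h ∅ ∅ :=
  H id good_id ∅ ∅ (by simp) (by simp)

end Vale.Agent.P062
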