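import Vale.Agent.P062.DataB

namespace Vale.Agent.P062

theorem chkB_1 : checkRange tbB 88 1 = true := by decide +kernel

theorem chkB_89 : checkRange tbB 86 89 = true := by decide +kernel

theorem chkB_175 : checkRange tbB 78 175 = true := by decide +kernel

theorem chkB_253 : checkRange tbB 75 253 = true := by decide +kernel

theorem chkB_328 : checkRange tbB 75 328 = true := by decide +kernel

theorem chkB_403 : checkRange tbB 75 403 = true := by decide +kernel

theorem chkB_478 : checkRange tbB 74 478 = true := by decide +kernel

theorem chkB_552 : checkRange tbB 74 552 = true := by decide +kernel

theorem chkB_626 : checkRange tbB 67 626 = true := by decide +kernel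

theorem chkB_693 : checkRange tbB 69 693 = true := by decide +kernel

theorem chkB_762 : checkRange tbB 70 762 = true := by decide +kernel

theorem chkB_832 : checkRange tbB 69 832 = true := by decide +kernel

theorem chkB_901 : checkRange tbB 68 901 = true := by decide +kernel

theorem chkB_969 : checkRange tbB 67 969 = true := by decide +kernel

theorem chkB_1036 : checkRange tbB 67 1036 = true := by decide +kernel

theorem chkB_1103 : checkRange tbB 66 1103 = true := by decide +kernel

theorem chkB_1169 : checkRange tbB 66 1169 = true := by decide +kernel

theorem chkB_1235 : checkRange tbB 67 1235 = true := by decide +kernel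

theorem chkB_1302 : checkRange tbB 61 1302 = true := by decide +kernel

theorem chkB_1363 : checkRange tbB 61 1363 = true := by decide +kernel

theorem chkB_1424 : checkRange tbB 59 1424 = true := by decide +kernel

theorem chkB_1483 : checkRange tbB 58 1483 = true := by decide +kernel

theorem chkB_1541 : checkRange tbB 61 1541 = true := by decide +kernel

theorem chkB_1602 : checkRange tbB 59 1602 = true := by decide +kernel

theorem chkB_1661 : checkRange tbB 58 1661 = true := by decide +kernel

theorem chkB_1719 : checkRange tbB 60 1719 = true := by decide +kernel

theorem chkB_1779 : checkRange tbB 59 1779 = true := by decide +kernel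

theorem chkB_1838 : checkRange tbB 53 1838 = true := by decide +kernel

theorem chkB_1891 : checkRange tbB 57 1891 = true := by decide +kernel

theorem chkB_1948 : checkRange tbB 59 1948 = true := by decide +kernel

theorem chkB_2007 : checkRange tbB 57 2007 = true := by decide +kernel

theorem chkB_2064 : checkRange tbB 57 2064 = true := by decide +kernel

theorem chkB_2121 : checkRange tbB 57 2121 = true := by decide +kernel

theorem chkB_2178 : checkRange tbB 55 2178 = true := by decide +kernel

theorem chkB_2233 : checkRange tbB 53 2233 = true := by decide +kernel

theorem chkB_2286 : checkRange tbB 54 2286 = true := by decide +kernel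

theorem chkB_2340 : checkRange tbB 55 2340 = true := by decide +kernel

theorem chkB_2395 : checkRange tbB 52 2395 = true := by decide +kernel

theorem chkB_2447 : checkRange tbB 52 2447 = true := by decide +kernel

end Vale.Agent.P062
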