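import Vale.Agent.P062.DataB

namespace Vale.Agent.P062

theorem chkB_2499 : checkRange tbB 55 2499 = true := by decide +kernel

theorem chkB_2554 : checkRange tbB 51 2554 = true := by decide +kernel

theorem chkB_2605 : checkRange tbB 51 2605 = true := by decide +kernel

theorem chkB_2656 : checkRange tbB 51 2656 = true := by decide +kernel

theorem chkB_2707 : checkRange tbB 46 2707 = true := by decide +kernel

theorem chkB_2753 : checkRange tbB 47 2753 = true := by decide +kernel

theorem chkB_2800 : checkRange tbB 48 2800 = true := by decide +kernel

theorem chkB_2848 : checkRange tbB 46 2848 = true := by decide +kernel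

theorem chkB_2894 : checkRange tbB 49 2894 = true := by decide +kernel

theorem chkB_2943 : checkRange tbB 47 2943 = true := by decide +kernel

theorem chkB_2990 : checkRange tbB 45 2990 = true := by decide +kernel

theorem chkB_3035 : checkRange tbB 44 3035 = true := by decide +kernel

theorem chkB_3079 : checkRange tbB 38 3079 = true := by decide +kernel

theorem chkB_3117 : checkRange tbB 45 3117 = true := by decide +kernel

theorem chkB_3162 : checkRange tbB 48 3162 = true := by decide +kernel

theorem chkB_3210 : checkRange tbB 45 3210 = true := by decide +kernel

theorem chkB_3255 : checkRange tbB 45 3255 = true := by decide +kernel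

theorem chkB_3300 : checkRange tbB 44 3300 = true := by decide +kernel

theorem chkB_3344 : checkRange tbB 41 3344 = true := by decide +kernel

theorem chkB_3385 : checkRange tbB 44 3385 = true := by decide +kernel

theorem chkB_3429 : checkRange tbB 44 3429 = true := by decide +kernel

theorem chkB_3473 : checkRange tbB 44 3473 = true := by decide +kernel

theorem chkB_3517 : checkRange tbB 39 3517 = true := by decide +kernel

theorem chkB_3556 : checkRange tbB 39 3556 = true := by decide +kernel

theorem chkB_3595 : checkRange tbB 34 3595 = true := by decide +kernel

theorem chkB_3629 : checkRange tbB 40 3629 = true := by decide +kernel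

theorem chkB_3669 : checkRange tbB 39 3669 = true := by decide +kernel

theorem chkB_3708 : checkRange tbB 36 3708 = true := by decide +kernel

theorem chkB_3744 : checkRange tbB 39 3744 = true := by decide +kernel

theorem chkB_3783 : checkRange tbB 32 3783 = true := by decide +kernel

theorem chkB_3815 : checkRange tbB 36 3815 = true := by decide +kernel

theorem chkB_3851 : checkRange tbB 38 3851 = true := by decide +kernel

theorem chkB_3889 : checkRange tbB 37 3889 = true := by decide +kernel

theorem chkB_3926 : checkRange tbB 41 3926 = true := by decide +kernel

theorem chkB_3967 : checkRange tbB 36 3967 = true := by decide +kernel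

theorem chkB_4003 : checkRange tbB 37 4003 = true := by decide +kernel

theorem chkB_4040 : checkRange tbB 38 4040 = true := by decide +kernel

theorem chkB_4078 : checkRange tbB 35 4078 = true := by decide +kernel

theorem chkB_4113 : checkRange tbB 36 4113 = true := by decide +kernel

end Vale.Agent.P062
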