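import Vale.Agent.P062.DataB

namespace Vale.Agent.P062

theorem chkB_4149 : checkRange tbB 39 4149 = true := by decide +kernel

theorem chkB_4188 : checkRange tbB 35 4188 = true := by decide +kernel

theorem chkB_4223 : checkRange tbB 33 4223 = true := by decide +kernel

theorem chkB_4256 : checkRange tbB 33 4256 = true := by decide +kernel

theorem chkB_4289 : checkRange tbB 31 4289 = true := by decide +kernel

theorem chkB_4320 : checkRange tbB 35 4320 = true := by decide +kernel

theorem chkB_4355 : checkRange tbB 31 4355 = true := by decide +kernel

theorem chkB_4386 : checkRange tbB 31 4386 = true := by decide +kernel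

theorem chkB_4417 : checkRange tbB 29 4417 = true := by decide +kernel

theorem chkB_4446 : checkRange tbB 31 4446 = true := by decide +kernel

theorem chkB_4477 : checkRange tbB 30 4477 = true := by decide +kernel

theorem chkB_4507 : checkRange tbB 29 4507 = true := by decide +kernel

theorem chkB_4536 : checkRange tbB 28 4536 = true := by decide +kernel

theorem chkB_4564 : checkRange tbB 29 4564 = true := by decide +kernel

theorem chkB_4593 : checkRange tbB 31 4593 = true := by decide +kernel

theorem chkB_4624 : checkRange tbB 29 4624 = true := by decide +kernel

theorem chkB_4653 : checkRange tbB 31 4653 = true := by decide +kernel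

theorem chkB_4684 : checkRange tbB 30 4684 = true := by decide +kernel

theorem chkB_4714 : checkRange tbB 29 4714 = true := by decide +kernel

theorem chkB_4743 : checkRange tbB 31 4743 = true := by decide +kernel

theorem chkB_4774 : checkRange tbB 30 4774 = true := by decide +kernel

theorem chkB_4804 : checkRange tbB 26 4804 = true := by decide +kernel

theorem chkB_4830 : checkRange tbB 28 4830 = true := by decide +kernel

theorem chkB_4858 : checkRange tbB 29 4858 = true := by decide +kernel

theorem chkB_4887 : checkRange tbB 24 4887 = true := by decide +kernel

theorem chkB_4911 : checkRange tbB 28 4911 = true := by decide +kernel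

theorem chkB_4939 : checkRange tbB 25 4939 = true := by decide +kernel

theorem chkB_4964 : checkRange tbB 26 4964 = true := by decide +kernel

theorem chkB_4990 : checkRange tbB 31 4990 = true := by decide +kernel

theorem chkB_5021 : checkRange tbB 24 5021 = true := by decide +kernel

theorem chkB_5045 : checkRange tbB 25 5045 = true := by decide +kernel

theorem chkB_5070 : checkRange tbB 25 5070 = true := by decide +kernel

theorem chkB_5095 : checkRange tbB 27 5095 = true := by decide +kernel

theorem chkB_5122 : checkRange tbB 25 5122 = true := by decide +kernel

theorem chkB_5147 : checkRange tbB 24 5147 = true := by decide +kernel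

theorem chkB_5171 : checkRange tbB 27 5171 = true := by decide +kernel

theorem chkB_5198 : checkRange tbB 23 5198 = true := by decide +kernel

theorem chkB_5221 : checkRange tbB 21 5221 = true := by decide +kernel

theorem chkB_5242 : checkRange tbB 22 5242 = true := by decide +kernel

end Vale.Agent.P062
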