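import Vale.Agent.P062.DataB

namespace Vale.Agent.P062

theorem chkB_5264 : checkRange tbB 24 5264 = true := by decide +kernel

theorem chkB_5288 : checkRange tbB 23 5288 = true := by decide +kernel

theorem chkB_5311 : checkRange tbB 26 5311 = true := by decide +kernel

theorem chkB_5337 : checkRange tbB 21 5337 = true := by decide +kernel

theorem chkB_5358 : checkRange tbB 20 5358 = true := by decide +kernel

theorem chkB_5378 : checkRange tbB 21 5378 = true := by decide +kernel

theorem chkB_5399 : checkRange tbB 22 5399 = true := by decide +kernel

theorem chkB_5421 : checkRange tbB 17 5421 = true := by decide +kernel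

theorem chkB_5438 : checkRange tbB 23 5438 = true := by decide +kernel

theorem chkB_5461 : checkRange tbB 17 5461 = true := by decide +kernel

theorem chkB_5478 : checkRange tbB 17 5478 = true := by decide +kernel

theorem chkB_5495 : checkRange tbB 19 5495 = true := by decide +kernel

theorem chkB_5514 : checkRange tbB 21 5514 = true := by decide +kernel

theorem chkB_5535 : checkRange tbB 19 5535 = true := by decide +kernel

theorem chkB_5554 : checkRange tbB 17 5554 = true := by decide +kernel

theorem chkB_5571 : checkRange tbB 17 5571 = true := by decide +kernel

theorem chkB_5588 : checkRange tbB 15 5588 = true := by decide +kernel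

theorem chkB_5603 : checkRange tbB 16 5603 = true := by decide +kernel

theorem chkB_5619 : checkRange tbB 14 5619 = true := by decide +kernel

theorem chkB_5633 : checkRange tbB 15 5633 = true := by decide +kernel

theorem chkB_5648 : checkRange tbB 11 5648 = true := by decide +kernel

theorem chkB_5659 : checkRange tbB 13 5659 = true := by decide +kernel

theorem chkB_5672 : checkRange tbB 13 5672 = true := by decide +kernel

theorem chkB_5685 : checkRange tbB 13 5685 = true := by decide +kernel

theorem chkB_5698 : checkRange tbB 13 5698 = true := by decide +kernel

theorem chkB_5711 : checkRange tbB 12 5711 = true := by decide +kernel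

theorem chkB_5723 : checkRange tbB 11 5723 = true := by decide +kernel

theorem chkB_5734 : checkRange tbB 8 5734 = true := by decide +kernel

theorem chkB_5742 : checkRange tbB 12 5742 = true := by decide +kernel

theorem chkB_5754 : checkRange tbB 11 5754 = true := by decide +kernel

theorem chkB_5765 : checkRange tbB 9 5765 = true := by decide +kernel

theorem chkB_5774 : checkRange tbB 9 5774 = true := by decide +kernel

theorem chkB_5783 : checkRange tbB 5 5783 = true := by decide +kernel

theorem chkB_5788 : checkRange tbB 9 5788 = true := by decide +kernel

theorem chkB_5797 : checkRange tbB 6 5797 = true := by decide +kernel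

theorem chkB_5803 : checkRange tbB 6 5803 = true := by decide +kernel

theorem chkB_5809 : checkRange tbB 2 5809 = true := by decide +kernel

theorem chkB_5811 : checkRange tbB 3 5811 = true := by decide +kernel

theorem chkB_5814 : checkRange tbB 1 5814 = true := by decide +kernel

end Vale.Agent.P062
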