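import Mathlib.Data.Set.Image
import Mathlib.Data.Int.Notation

namespace Vale.Agent.P062

/-- The hexomino Snaky. -/
def snaky : Set (ℤ × ℤ) := {(0, 0), (1, 0), (2, 0), (3, 0), (3, 1), (4, 1)}

/-- The matrix with rows `(a, b)` and `(c, d)` is a signed permutation matrix. -/
def IsSignedPerm (a b c d : ℤ) : Prop :=
  (b = 0 ∧ c = 0 ∧ (a = 1 ∨ a = -1) ∧ (d = 1 ∨ d = -1)) ∨
  (a = 0 ∧ d = 0 ∧ (b = 1 ∨ b = -1) ∧ (c = 1 ∨ c = -1))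

/-- An allowed copy `t + R(S)` of Snaky. -/
def IsAllowedCopy (C : Set (ℤ × ℤ)) : Prop :=
  ∃ (t : ℤ × ℤ) (a b c d : ℤ), IsSignedPerm a b c d ∧
    C = (fun p : ℤ × ℤ => (t.1 + (a * p.1 + b * p.2), t.2 + (c * p.1 + d * p.2))) '' snaky

end Vale.Agent.P062
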