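import Vale.Agent.P062.Defs
import Mathlib.Data.Fintype.EquivFin
import Mathlib.Data.Fintype.Prod
import Mathlib.Data.Finset.Basic
import Mathlib.Tactic.Ring
import Mathlib.Data.Nat.Bitwise

namespace Vale.Agent.P062

abbrev Cell := ℤ × ℤ

/-- Maker, to move, can force owning a copy after `h` more own moves, playing inside `R`
as long as the counter is positive (or anywhere if already irrelevant). -/
def W : ℕ → Finset Cell → Finset Cell → Prop
  | 0, M, _ => ∃ C, IsAllowedCopy C ∧ C ⊆ (M : Set Cell)
  | h + 1, M, B => ∃ p, p ∉ M ∧ p ∉ B ∧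
      ∀ x, x ∉ insert p M → x ∉ B → W h (insert p M) (insert x B)

theorem exists_fresh (M B : Finset Cell) : ∃ p, p ∉ M ∧ p ∉ B := by
  obtain ⟨p, hp⟩ := Infinite.exists_notMem_finset (M ∪ B)
  exact ⟨p, fun h => hp (Finset.mem_union_left _ h), fun h => hp (Finset.mem_union_right _ h)⟩

theorem W_succ : ∀ (h : ℕ) (M B : Finset Cell), W h M B → W (h + 1) M B
  | 0, M, B, ⟨C, hC, hs⟩ => by
      obtain ⟨p, hp1, hp2⟩ := exists_fresh M B
      refine ⟨p, hp1, hp2, fun x _ _ => ⟨C, hC, fun c hc => ?_⟩⟩
      have := hs hc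
      simp only [Finset.coe_insert, Set.mem_insert_iff]
      exact Or.inr this
  | h + 1, M, B, ⟨p, hp1, hp2, H⟩ =>
      ⟨p, hp1, hp2, fun x hx1 hx2 => W_succ h _ _ (H x hx1 hx2)⟩

theorem W_mono {h k : ℕ} (hk : h ≤ k) {M B : Finset Cell} (H : W h M B) : W k M B := by
  induction hk with
  | refl => exact H
  | step _ ih => exact W_succ _ _ _ ih

open Classical in
noncomputable def pick (h : ℕ) (M B : Finset Cell) : Cell :=
  if H : ∃ p, p ∉ M ∧ p ∉ B ∧
      ∀ x, x ∉ insert p M → x ∉ B → W (h - 1) (insert p M) (insert x B)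
  then H.choose else (exists_fresh M B).choose

theorem pick_fresh (h : ℕ) (M B : Finset Cell) : pick h M B ∉ M ∧ pick h M B ∉ B := by
  unfold pick
  split_ifs with H
  · exact ⟨H.choose_spec.1, H.choose_spec.2.1⟩
  · exact (exists_fresh M B).choose_spec

theorem pick_win (h : ℕ) (M B : Finset Cell) (H : W (h + 1) M B) :
    ∀ x, x ∉ insert (pick (h + 1) M B) M → x ∉ B →
      W h (insert (pick (h + 1) M B) M) (insert x B) := by
  have H' : ∃ p, p ∉ M ∧ p ∉ B ∧
      ∀ x, x ∉ insert p M → x ∉ B → W (h + 1 - 1) (insert p M) (insert x B) := H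
  have : pick (h + 1) M B = H'.choose := by
    unfold pick
    rw [dif_pos H']
  rw [this]
  exact H'.choose_spec.2.2

noncomputable def step (N : ℕ) (s : ℕ × Finset Cell × Finset Cell) (x : Cell) :
    ℕ × Finset Cell × Finset Cell :=
  (s.1 + 1, insert (pick (N - s.1) s.2.1 s.2.2) s.2.1, insert x s.2.2)

noncomputable def state (N : ℕ) (l : List Cell) : ℕ × Finset Cell × Finset Cell :=
  l.foldl (step N) (0, ∅, ∅)

noncomputable def strat (N : ℕ) (l : List Cell) : Cell :=
  pick (N - (state N l).1) (state N l).2.1 (state N l).2.2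

theorem state_succ (N : ℕ) (b : ℕ → Cell) (n : ℕ) :
    state N ((List.range (n + 1)).map b) = step N (state N ((List.range n).map b)) (b n) := by
  unfold state
  rw [List.range_succ, List.map_append, List.foldl_append]
  rfl

theorem state_spec (N : ℕ) (b m : ℕ → Cell)
    (hm : ∀ n, m n = strat N ((List.range n).map b)) (n : ℕ) :
    (state N ((List.range n).map b)).1 = n ∧
    (∀ c, c ∈ (state N ((List.range n).map b)).2.1 ↔ ∃ k < n, m k = c) ∧
    (∀ c, c ∈ (state N ((List.range n).map b)).2.2 ↔ ∃ k < n, b k = c) := by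
  induction n with
  | zero => simp [state]
  | succ n ih =>
    obtain ⟨h1, h2, h3⟩ := ih
    rw [state_succ]
    refine ⟨by simp [step, h1], fun c => ?_, fun c => ?_⟩
    · have e : pick (N - (state N ((List.range n).map b)).1) (state N ((List.range n).map b)).2.1
          (state N ((List.range n).map b)).2.2 = m n := (hm n).symm
      simp only [step, e, Finset.mem_insert, h2]
      constructor
      · rintro (rfl | ⟨k, hk, rfl⟩)
        · exact ⟨n, by omega, rfl⟩
        · exact ⟨k, by omega, rfl⟩
      · rintro ⟨k, hk, rfl⟩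
        rcases Nat.lt_succ_iff_lt_or_eq.mp hk with h | rfl
        · exact Or.inr ⟨k, h, rfl⟩
        · exact Or.inl rfl
    · simp only [step, Finset.mem_insert, h3]
      constructor
      · rintro (rfl | ⟨k, hk, rfl⟩)
        · exact ⟨n, by omega, rfl⟩
        · exact ⟨k, by omega, rfl⟩
      · rintro ⟨k, hk, rfl⟩
        rcases Nat.lt_succ_iff_lt_or_eq.mp hk with h | rfl
        · exact Or.inr ⟨k, h, rfl⟩
        · exact Or.inl rfl

theorem strategy_of_W (N : ℕ) (H : W (N + 1) ∅ ∅) :
    ∃ σ : List Cell → Cell, ∀ b m : ℕ → Cell, (∀ n, m n = σ ((List.range n).map b)) →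
      (∀ n, ∀ k < n, m n ≠ m k ∧ m n ≠ b k) ∧
      ((∀ j < N, (∀ k ≤ j, b j ≠ m k) ∧ (∀ k < j, b j ≠ b k)) →
        ∃ C, IsAllowedCopy C ∧ ∀ c ∈ C, ∃ k < N + 1, m k = c) := by
  refine ⟨strat (N + 1), fun b m hm => ⟨fun n k hk => ?_, fun hb => ?_⟩⟩
  · obtain ⟨_, h2, h3⟩ := state_spec (N + 1) b m hm n
    have hf := pick_fresh (N + 1 - (state (N + 1) ((List.range n).map b)).1)
      (state (N + 1) ((List.range n).map b)).2.1 (state (N + 1) ((List.range n).map b)).2.2
    have e : pick (N + 1 - (state (N + 1) ((List.range n).map b)).1)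
      (state (N + 1) ((List.range n).map b)).2.1 (state (N + 1) ((List.range n).map b)).2.2
        = m n := (hm n).symm
    rw [e] at hf
    exact ⟨fun h => hf.1 ((h2 _).2 ⟨k, hk, h.symm⟩), fun h => hf.2 ((h3 _).2 ⟨k, hk, h.symm⟩)⟩
  · have key : ∀ n ≤ N, W (N + 1 - n) (state (N + 1) ((List.range n).map b)).2.1
        (state (N + 1) ((List.range n).map b)).2.2 := by
      intro n hn
      induction n with
      | zero => simpa [state] using H
      | succ n ih =>
        have ih' := ih (by omega)
        obtain ⟨h1, h2, h3⟩ := state_spec (N + 1) b m hm n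
        have e1 : N + 1 - n = (N - n) + 1 := by omega
        have e2 : N + 1 - (n + 1) = N - n := by omega
        rw [e1] at ih'
        have := pick_win _ _ _ ih' (b n)
        rw [state_succ, e2]
        have e : pick (N - n + 1) (state (N + 1) ((List.range n).map b)).2.1
            (state (N + 1) ((List.range n).map b)).2.2 = m n := by
          rw [hm n, strat, h1, e1]
        simp only [step, h1, e1]
        apply this
        · rw [e, Finset.mem_insert, h2]
          rintro (h | ⟨k, hk, h⟩)
          · exact (hb n (by omega)).1 n le_rfl h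
          · exact (hb n (by omega)).1 k hk.le h.symm
        · rw [h3]
          rintro ⟨k, hk, h⟩
          exact (hb n (by omega)).2 k hk h.symm
    have k1 := key N le_rfl
    have e1 : N + 1 - N = 0 + 1 := by omega
    rw [e1] at k1
    obtain ⟨h1, h2, h3⟩ := state_spec (N + 1) b m hm N
    obtain ⟨x, hx1, hx2⟩ := exists_fresh (insert (pick (0 + 1)
      (state (N + 1) ((List.range N).map b)).2.1 (state (N + 1) ((List.range N).map b)).2.2)
      (state (N + 1) ((List.range N).map b)).2.1) (state (N + 1) ((List.range N).map b)).2.2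
    obtain ⟨C, hC, hs⟩ := pick_win _ _ _ k1 x hx1 hx2
    have e : pick (0 + 1) (state (N + 1) ((List.range N).map b)).2.1
        (state (N + 1) ((List.range N).map b)).2.2 = m N := by
      rw [hm N, strat, h1, e1]
    refine ⟨C, hC, fun c hc => ?_⟩
    have := hs hc
    rw [e, Finset.mem_coe, Finset.mem_insert, h2] at this
    rcases this with rfl | ⟨k, hk, rfl⟩
    · exact ⟨N, by omega, rfl⟩
    · exact ⟨k, by omega, rfl⟩

end Vale.Agent.P062
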